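import Vale.Agent.P243.Defs

namespace Vale.Agent.P243

open MeasureTheory Module
open scoped InnerProductSpace

def cylinder0 (u : E3) (B : Set (ℝ ∙ u)ᗮ) : Set E3 :=
  {x | ∃ b ∈ B, ∃ t : ℝ, x = (b : E3) + t • u}

noncomputable def area0 (u : E3) (B : Set (ℝ ∙ u)ᗮ) : ℝ :=
  (volume B).toReal

noncomputable def projArea0 (K : Set E3) (u : E3) : ℝ :=
  area0 u ((ℝ ∙ u)ᗮ.orthogonalProjectionOnto '' K)

noncomputable def minProjArea0 (K : Set E3) : ℝ :=
  ⨅ u : Metric.sphere (0 : E3) 1, projArea0 K u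

abbrev E2 : Type := EuclideanSpace ℝ (Fin 2)

def det3 (u e f : E3) : ℝ :=
  u 0 * (e 1 * f 2 - e 2 * f 1) - u 1 * (e 0 * f 2 - e 2 * f 0) + u 2 * (e 0 * f 1 - e 1 * f 0)

lemma inner3 (a b : E3) : ⟪a, b⟫_ℝ = a 0 * b 0 + a 1 * b 1 + a 2 * b 2 := by
  simp [PiLp.inner_apply, Fin.sum_univ_three]; ring

lemma normsq3 {u : E3} (hu : ‖u‖ = 1) : u 0 ^ 2 + u 1 ^ 2 + u 2 ^ 2 = 1 := by
  have h := EuclideanSpace.real_norm_sq_eq u
  rw [hu, Fin.sum_univ_three] at h
  linarith

lemma proj_coe {u : E3} (hu : ‖u‖ = 1) (x : E3) :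
    (((ℝ ∙ u)ᗮ.orthogonalProjectionOnto x : (ℝ ∙ u)ᗮ) : E3) = x - ⟪u, x⟫_ℝ • u := by
  rw [Submodule.coe_orthogonalProjectionOnto_apply, Submodule.starProjection_orthogonal_val,
    Submodule.starProjection_unit_singleton ℝ hu x]

lemma finrank_perp {u : E3} (hu : ‖u‖ = 1) : finrank ℝ (ℝ ∙ u)ᗮ = 2 := by
  have : Fact (finrank ℝ E3 = 2 + 1) := ⟨by simp⟩
  have h0 : u ≠ 0 := by
    intro h; rw [h] at hu; simp at hu
  exact Submodule.finrank_orthogonal_span_singleton h0

/-- The linear parametrisation of a plane, followed by the projection. -/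
noncomputable def pmap (u e f : E3) : E2 →ₗ[ℝ] (ℝ ∙ u)ᗮ :=
  ((ℝ ∙ u)ᗮ.orthogonalProjectionOnto : E3 →L[ℝ] (ℝ ∙ u)ᗮ).toLinearMap ∘ₗ
    (((EuclideanSpace.proj (0 : Fin 2) : E2 →L[ℝ] ℝ).toLinearMap.smulRight e) +
     ((EuclideanSpace.proj (1 : Fin 2) : E2 →L[ℝ] ℝ).toLinearMap.smulRight f))

lemma pmap_apply (u e f : E3) (v : E2) :
    pmap u e f v = (ℝ ∙ u)ᗮ.orthogonalProjectionOnto (v 0 • e + v 1 • f) := by
  simp [pmap]

lemma pmap_normDet {u : E3} (hu : ‖u‖ = 1) (e f : E3) :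
    (pmap u e f).normDet = |det3 u e f| := by
  have h := (pmap u e f).normDet_sq_eq_det_gram (EuclideanSpace.basisFun (Fin 2) ℝ)
  have h0 : pmap u e f (EuclideanSpace.basisFun (Fin 2) ℝ 0)
      = (ℝ ∙ u)ᗮ.orthogonalProjectionOnto e := by
    rw [pmap_apply]; simp
  have h1 : pmap u e f (EuclideanSpace.basisFun (Fin 2) ℝ 1)
      = (ℝ ∙ u)ᗮ.orthogonalProjectionOnto f := by
    rw [pmap_apply]; simp
  rw [Matrix.det_fin_two] at h
  simp only [Matrix.gram_apply, h0, h1, Submodule.coe_inner, proj_coe hu] at h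
  have hn := normsq3 hu
  have key : (pmap u e f).normDet ^ 2 = (det3 u e f) ^ 2 := by
    have h' : (pmap u e f).normDet ^ 2 =
        ⟪e - ⟪u, e⟫_ℝ • u, e - ⟪u, e⟫_ℝ • u⟫_ℝ * ⟪f - ⟪u, f⟫_ℝ • u, f - ⟪u, f⟫_ℝ • u⟫_ℝ -
        ⟪e - ⟪u, e⟫_ℝ • u, f - ⟪u, f⟫_ℝ • u⟫_ℝ * ⟪f - ⟪u, f⟫_ℝ • u, e - ⟪u, e⟫_ℝ • u⟫_ℝ := by
      simpa using h
    have huu : ⟪u, u⟫_ℝ = 1 := by rw [real_inner_self_eq_norm_sq, hu]; norm_num
    have aux : ∀ a b : E3, ⟪a - ⟪u, a⟫_ℝ • u, b - ⟪u, b⟫_ℝ • u⟫_ℝ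
        = ⟪a, b⟫_ℝ - ⟪u, a⟫_ℝ * ⟪u, b⟫_ℝ := by
      intro a b
      rw [inner_sub_left, inner_sub_right, inner_sub_right, real_inner_smul_left,
        real_inner_smul_left, real_inner_smul_right, real_inner_smul_right, huu,
        real_inner_comm u a]
      ring
    rw [h', aux, aux, aux, aux]
    simp only [inner3, det3]
    linear_combination (-((e 0 ^ 2 + e 1 ^ 2 + e 2 ^ 2) * (f 0 ^ 2 + f 1 ^ 2 + f 2 ^ 2)
      - (e 0 * f 0 + e 1 * f 1 + e 2 * f 2) ^ 2)) * hn
  have hnn := (pmap u e f).normDet_nonneg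
  rw [← abs_of_nonneg hnn]
  exact sq_eq_sq_iff_abs_eq_abs _ _ |>.mp key

/-- The projected planar piece `A + s e + t f`, `(s,t) ∈ S`. -/
def piece (u A e f : E3) (S : Set E2) : Set (ℝ ∙ u)ᗮ :=
  (fun v : E2 => (ℝ ∙ u)ᗮ.orthogonalProjectionOnto (A + v 0 • e + v 1 • f)) '' S

lemma volume_piece {u : E3} (hu : ‖u‖ = 1) (A e f : E3) (S : Set E2) :
    volume (piece u A e f S) = ENNReal.ofReal |det3 u e f| * volume S := by
  have h1 : piece u A e f S =
      (fun w => (ℝ ∙ u)ᗮ.orthogonalProjectionOnto A + w) '' (pmap u e f '' S) := by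
    rw [Set.image_image]
    unfold piece
    congr 1
    ext1 v
    rw [pmap_apply, ← map_add, add_assoc]
  rw [h1, Set.image_add_left, measure_preimage_add]
  have h2 := (pmap u e f).euclideanHausdorffMeasure_image_eq_normDet_mul_volume S
  have h3 : finrank ℝ E2 = finrank ℝ (ℝ ∙ u)ᗮ := by rw [finrank_perp hu]; simp
  rw [h3, InnerProductSpace.euclideanHausdorffMeasure_eq_volume, pmap_normDet hu] at h2
  exact h2

/-- closed standard triangle -/
def triC : Set E2 := {v | 0 ≤ v 0 ∧ 0 ≤ v 1 ∧ v 0 + v 1 ≤ 1}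

/-- open standard triangle -/
def triO : Set E2 := {v | 0 < v 0 ∧ 0 < v 1 ∧ v 0 + v 1 < 1}

lemma triO_subset : triO ⊆ triC := fun _ h => ⟨h.1.le, h.2.1.le, h.2.2.le⟩

lemma vol_transfer (T : Set (ℝ × ℝ)) (hT : MeasurableSet T) :
    volume {v : E2 | (v 0, v 1) ∈ T} = volume T := by
  have h := ((volume_preserving_finTwoArrow ℝ).comp (PiLp.volume_preserving_ofLp (Fin 2)))
  exact h.measure_preimage hT.nullMeasurableSet

lemma volume_triO : volume triO = ENNReal.ofReal (1 / 2) := by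
  have h1 : triO = {v : E2 | (v 0, v 1) ∈ regionBetween (fun _ => (0 : ℝ)) (fun x => 1 - x)
      (Set.Ioo 0 1)} := by
    ext v
    simp only [triO, regionBetween, Set.mem_ofPred_eq, Set.mem_Ioo]
    constructor
    · rintro ⟨a, b, c⟩; refine ⟨⟨a, by linarith⟩, b, by linarith⟩
    · rintro ⟨⟨a, _⟩, b, c⟩; refine ⟨a, b, by linarith⟩
  rw [h1, vol_transfer _ (measurableSet_regionBetween (by fun_prop) (by fun_prop) measurableSet_Ioo)]
  rw [Measure.volume_eq_prod, volume_regionBetween_eq_integral (by simp)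
    ((by fun_prop : Continuous fun x : ℝ => 1 - x).integrableOn_Icc.mono_set Set.Ioo_subset_Icc_self)
    measurableSet_Ioo (by intro x hx; simp only [Set.mem_Ioo] at hx; linarith)]
  congr 1
  rw [← integral_Ioc_eq_integral_Ioo, ← intervalIntegral.integral_of_le zero_le_one]
  simp only [Pi.sub_apply, sub_zero]
  rw [intervalIntegral.integral_sub (by simp) (by simp)]
  simp
  norm_num

lemma convex_triC : Convex ℝ triC := by
  intro a ha b hb s t hs ht hst
  obtain ⟨a0, a1, a2⟩ := ha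
  obtain ⟨b0, b1, b2⟩ := hb
  refine ⟨?_, ?_, ?_⟩ <;> simp only [PiLp.add_apply, PiLp.smul_apply, smul_eq_mul] <;> nlinarith

lemma isClosed_triC : IsClosed triC := by
  have h1 : IsClosed {v : E2 | 0 ≤ v 0} := isClosed_le (by fun_prop) (by fun_prop)
  have h2 : IsClosed {v : E2 | 0 ≤ v 1} := isClosed_le (by fun_prop) (by fun_prop)
  have h3 : IsClosed {v : E2 | v 0 + v 1 ≤ 1} := isClosed_le (by fun_prop) (by fun_prop)
  exact h1.inter (h2.inter h3)

lemma isCompact_triC : IsCompact triC := by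
  apply Metric.isCompact_of_isClosed_isBounded isClosed_triC
  rw [Metric.isBounded_iff_subset_closedBall 0]
  refine ⟨2, fun v hv => ?_⟩
  obtain ⟨a0, a1, a2⟩ := hv
  rw [mem_closedBall_zero_iff]
  have h := EuclideanSpace.real_norm_sq_eq v
  rw [Fin.sum_univ_two] at h
  nlinarith [norm_nonneg v]

lemma volume_triC : volume triC = ENNReal.ofReal (1 / 2) := by
  apply le_antisymm
  · -- the closed triangle lies in the open one together with three lines
    have hsub : triC ⊆ triO ∪ ({v : E2 | v 0 = 0} ∪ ({v : E2 | v 1 = 0} ∪ {v : E2 | v 0 + v 1 = 1})) := by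
      rintro v ⟨a, b, c⟩
      rcases a.eq_or_lt with a | a
      · right; left; exact a.symm
      rcases b.eq_or_lt with b | b
      · right; right; left; exact b.symm
      rcases c.eq_or_lt with c | c
      · right; right; right; exact c
      left; exact ⟨a, b, c⟩
    have z1 : volume {v : E2 | v 0 = 0} = 0 := by
      have := vol_transfer {p : ℝ × ℝ | p.1 = 0} (measurableSet_eq_fun (by fun_prop) (by fun_prop))
      rw [show {v : E2 | v 0 = 0} = {v : E2 | (v 0, v 1) ∈ {p : ℝ × ℝ | p.1 = 0}} from rfl, this,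
        show {p : ℝ × ℝ | p.1 = 0} = ({0} : Set ℝ) ×ˢ (Set.univ : Set ℝ) by ext p; simp,
        Measure.volume_eq_prod, Measure.prod_prod]
      simp
    have z2 : volume {v : E2 | v 1 = 0} = 0 := by
      have := vol_transfer {p : ℝ × ℝ | p.2 = 0} (measurableSet_eq_fun (by fun_prop) (by fun_prop))
      rw [show {v : E2 | v 1 = 0} = {v : E2 | (v 0, v 1) ∈ {p : ℝ × ℝ | p.2 = 0}} from rfl, this,
        show {p : ℝ × ℝ | p.2 = 0} = (Set.univ : Set ℝ) ×ˢ ({0} : Set ℝ) by ext p; simp,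
        Measure.volume_eq_prod, Measure.prod_prod]
      simp
    have z3 : volume {v : E2 | v 0 + v 1 = 1} = 0 := by
      have hm : MeasurableSet {p : ℝ × ℝ | p.1 + p.2 = 1} :=
        measurableSet_eq_fun (by fun_prop) (by fun_prop)
      have := vol_transfer {p : ℝ × ℝ | p.1 + p.2 = 1} hm
      rw [show {v : E2 | v 0 + v 1 = 1} = {v : E2 | (v 0, v 1) ∈ {p : ℝ × ℝ | p.1 + p.2 = 1}}
        from rfl, this, Measure.volume_eq_prod, Measure.prod_apply hm]
      have : ∀ x : ℝ, volume (Prod.mk x ⁻¹' {p : ℝ × ℝ | p.1 + p.2 = 1}) = 0 := by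
        intro x
        have : Prod.mk x ⁻¹' {p : ℝ × ℝ | p.1 + p.2 = 1} = {1 - x} := by
          ext y; simp only [Set.mem_preimage, Set.mem_ofPred_eq, Set.mem_singleton_iff]
          constructor <;> intro h <;> linarith
        rw [this]; simp
      simp only [this, lintegral_zero]
    calc volume triC ≤ volume triO + (volume {v : E2 | v 0 = 0} + (volume {v : E2 | v 1 = 0}
          + volume {v : E2 | v 0 + v 1 = 1})) :=
          (measure_mono hsub).trans ((measure_union_le _ _).trans (add_le_add le_rfl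
            ((measure_union_le _ _).trans (add_le_add le_rfl (measure_union_le _ _)))))
      _ = _ := by rw [z1, z2, z3, volume_triO]; simp
  · rw [← volume_triO]; exact measure_mono triO_subset

lemma isCompact_piece (u A e f : E3) : IsCompact (piece u A e f triC) :=
  isCompact_triC.image (by fun_prop)

end Vale.Agent.P243
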