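import Vale.Agent.P243.Main

namespace Vale.Agent.P243

open MeasureTheory Module
open scoped InnerProductSpace

lemma areaMeasure_coe {u : E3} (hu : ‖u‖ = 1) (B : Set (ℝ ∙ u)ᗮ) :
    areaMeasure (Subtype.val '' B) = volume B := by
  unfold areaMeasure
  rw [isometry_subtype_coe.euclideanHausdorffMeasure_image, ← finrank_perp hu,
    InnerProductSpace.euclideanHausdorffMeasure_eq_volume]

lemma area_coe {u : E3} (hu : ‖u‖ = 1) (B : Set (ℝ ∙ u)ᗮ) :
    area (Subtype.val '' B) = area0 u B := by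
  unfold area area0; rw [areaMeasure_coe hu]

lemma projArea_eq {u : E3} (hu : ‖u‖ = 1) (K : Set E3) : projArea K u = projArea0 K u := by
  unfold projArea projArea0
  rw [← area_coe hu, Set.image_image]
  congr 2
  ext1 x
  exact (proj_coe hu x).symm

lemma minProjArea_lower : 2 * √2 ≤ minProjArea tet := by
  have : Nonempty {u : E3 // ‖u‖ = 1} := ⟨⟨udir (true, 0), udir_norm _⟩⟩
  apply le_ciInf
  intro u
  rw [projArea_eq u.2]
  exact proj_lower u.2

theorem main_tet' :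
    ∃ (m : ℕ) (u : Fin m → E3) (B : Fin m → Set E3),
      (∀ i, ‖u i‖ = 1) ∧ (∀ i, ∀ b ∈ B i, inner ℝ (u i) b = 0) ∧
      (∀ i, MeasurableSet (B i)) ∧ (∀ i, areaMeasure (B i) < ⊤) ∧
      tet ⊆ ⋃ i, cylinder (u i) (B i) ∧
      ∑ i, area (B i) ≤ (1 / 2 - 1 / 4500) * (2 * √2) ∧
      ∑ i, area (B i) / projArea tet (u i) ≤ 229 / 500 := by
  obtain ⟨m, u, B, h1, h2, h3, h4, h5, h6⟩ := main_tet
  refine ⟨m, u, fun i => Subtype.val '' B i, h1, ?_, ?_, ?_, ?_, ?_, ?_⟩
  · rintro i _ ⟨b, _, rfl⟩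
    exact Submodule.mem_orthogonal_singleton_iff_inner_right.mp b.2
  · intro i
    exact (MeasurableEmbedding.subtype_coe
      (Submodule.isClosed_orthogonal _).measurableSet).measurableSet_image.mpr (h2 i)
  · intro i; rw [areaMeasure_coe (h1 i)]; exact h3 i
  · refine h4.trans (Set.iUnion_mono fun i => ?_)
    rintro x ⟨b, hb, t, rfl⟩
    exact ⟨b, ⟨b, hb, rfl⟩, t, rfl⟩
  · simp only [area_coe (h1 _)]; exact h5
  · simp only [area_coe (h1 _), projArea_eq (h1 _)]; exact h6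

end Vale.Agent.P243
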