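import Mathlib

namespace Vale.Agent.P243

open MeasureTheory

/-- Euclidean three-space. -/
abbrev E3 : Type := EuclideanSpace ℝ (Fin 3)

/-- The cylinder `B + ℝ u`. -/
def cylinder (u : E3) (B : Set E3) : Set E3 :=
  {x | ∃ b ∈ B, ∃ t : ℝ, x = b + t • u}

/-- Two-dimensional Euclidean area measure: Mathlib's `μHE[2]` is the Hausdorff measure normalised
so that it is the planar Lebesgue measure on every plane. -/
noncomputable def areaMeasure : Measure E3 :=
  Measure.euclideanHausdorffMeasure 2

/-- Planar area of a subset of a plane, as a real number. -/
noncomputable def area (B : Set E3) : ℝ :=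
  (areaMeasure B).toReal

/-- Area of the orthogonal projection of `K` onto the plane `u^⊥` (for a unit vector `u`). -/
noncomputable def projArea (K : Set E3) (u : E3) : ℝ :=
  area ((fun x => x - (inner ℝ u x) • u) '' K)

/-- The smallest area of an orthogonal projection of `K` onto a plane. -/
noncomputable def minProjArea (K : Set E3) : ℝ :=
  ⨅ u : {u : E3 // ‖u‖ = 1}, projArea K u

end Vale.Agent.P243
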