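import Mathlib

namespace Vale.Agent.P243

/-- half mesh -/
noncomputable def kk : ℝ := 1 / 100000

/-- depth of the wedge with mid-slope `S` -/
noncomputable def rr (S : ℝ) : ℝ :=
  1 + kk / 4 + (1 / 72) * (S ^ 4 + S ^ 2) + (1 / 2160) * S ^ 4

noncomputable def PP (S : ℝ) : ℝ := (1 + S ^ 2 - kk ^ 2) / 2

noncomputable def qq (S : ℝ) : ℝ := (1 / 36) * (PP S ^ 2 + 2 * S ^ 2)

noncomputable def rho (S : ℝ) : ℝ := 1 - qq S / 2 + 3 / 8 * qq S ^ 2

noncomputable def sl (i : ℕ) : ℝ := -1 + 2 * kk * i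

noncomputable def mid (i : ℕ) : ℝ := sl i + kk

noncomputable def G1 (s : ℝ) : ℝ :=
  (1068129061352817097195436035706655150477679526494414652952825386219581710859586368179369489493 / 1071825955200000000000000000000000000000000000000000000000000000000000000000000000000000000000 : ℝ) * s ^ 1
    + (-1009604572514339977349448968672978660182137180276454532319761202606650152196453 / 453496320000000000000000000000000000000000000000000000000000000000000000000000000 : ℝ) * s ^ 3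
    + (1268086468885571979462804021040285765380199703836964343173610400447739 / 241864704000000000000000000000000000000000000000000000000000000000000000 : ℝ) * s ^ 5
    + (-13502793517270258200600966658405580098488006959826315909793 / 338610585600000000000000000000000000000000000000000000000000000 : ℝ) * s ^ 7
    + (89091409348469615735057109668500967624024629469 / 4643802316800000000000000000000000000000000000000000 : ℝ) * s ^ 9
    + (1040883774727993912037239583316725011 / 3547348992000000000000000000000000000000000 : ℝ) * s ^ 11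
    + (285101115770283111142397 / 11179524096000000000000000000000 : ℝ) * s ^ 13
    + (5855555554381 / 1074954240000000000000 : ℝ) * s ^ 15
    + (961 / 4385813299200 : ℝ) * s ^ 17

noncomputable def G2 (s : ℝ) : ℝ :=
  (291163326813824097289443532257799343677557124788213380371599963040905577 / 315242928000000000000000000000000000000000000000000000000000000000000000 : ℝ) * s ^ 1
    + (-147096950966776346324900668312260568182644258258333617469 / 10077696000000000000000000000000000000000000000000000000000 : ℝ) * s ^ 3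
    + (71002415390078905940312059309550840911112662699 / 11197440000000000000000000000000000000000000000000 : ℝ) * s ^ 5
    + (-242805756063217128195364866667043699 / 1175731200000000000000000000000000000000 : ℝ) * s ^ 7
    + (4067222246870233333375297 / 100776960000000000000000000000 : ℝ) * s ^ 9
    + (-9687500002883 / 9237888000000000000 : ℝ) * s ^ 11
    + (961 / 8734003200 : ℝ) * s ^ 13

lemma G1_step (s : ℝ) :
    2 * kk * (rr (s + kk) ^ 2 * rho (s + kk)) = G1 (s + 2 * kk) - G1 s := by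
  unfold G1 rho qq PP rr kk
  ring

lemma G2_step (s : ℝ) :
    2 * kk * (rr (s + kk) ^ 2 * (1 - PP (s + kk) / 6 + (PP (s + kk) / 6) ^ 2))
      = G2 (s + 2 * kk) - G2 s := by
  unfold G2 PP rr kk
  ring

lemma sl_succ (i : ℕ) : sl (i + 1) = sl i + 2 * kk := by
  unfold sl; push_cast; ring

lemma sl_zero : sl 0 = -1 := by simp [sl]

lemma sl_last : sl 100000 = 1 := by unfold sl kk; norm_num

lemma sum1 : ∑ i ∈ Finset.range 100000, 2 * kk * (rr (mid i) ^ 2 * rho (mid i))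
    ≤ 2 - 4 / 4500 := by
  have h : ∀ i ∈ Finset.range 100000, 2 * kk * (rr (mid i) ^ 2 * rho (mid i))
      = G1 (sl (i + 1)) - G1 (sl i) := by
    intro i _
    rw [sl_succ]; exact G1_step _
  rw [Finset.sum_congr rfl h, Finset.sum_range_sub (fun i => G1 (sl i)), sl_zero, sl_last]
  unfold G1
  norm_num

lemma sum2 : ∑ i ∈ Finset.range 100000,
    2 * kk * (rr (mid i) ^ 2 * (1 - PP (mid i) / 6 + (PP (mid i) / 6) ^ 2)) ≤ 4 * (229 / 500) := by
  have h : ∀ i ∈ Finset.range 100000,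
      2 * kk * (rr (mid i) ^ 2 * (1 - PP (mid i) / 6 + (PP (mid i) / 6) ^ 2))
      = G2 (sl (i + 1)) - G2 (sl i) := by
    intro i _
    rw [sl_succ]; exact G2_step _
  rw [Finset.sum_congr rfl h, Finset.sum_range_sub (fun i => G2 (sl i)), sl_zero, sl_last]
  unfold G2
  norm_num

lemma kk_pos : 0 < kk := by unfold kk; norm_num

lemma mid_bound {i : ℕ} (hi : i < 100000) : -1 + kk ≤ mid i ∧ mid i ≤ 1 - kk := by
  have h0 : (0 : ℝ) ≤ i := Nat.cast_nonneg i
  have h1 : (i : ℝ) + 1 ≤ 100000 := by exact_mod_cast hi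
  unfold mid sl kk
  constructor <;> nlinarith

lemma rr_ge (S : ℝ) : 1 ≤ rr S := by
  have := kk_pos
  unfold rr; nlinarith [sq_nonneg S, sq_nonneg (S ^ 2)]

lemma key_ineq {S T : ℝ} (hS : S ^ 2 ≤ 1) (hT : T ^ 2 ≤ 1) :
    (1 / 6) * (S * T) * (rr T - rr S) + (1 / 36) * ((1 + T ^ 2) / 2 * S ^ 2 + (1 + S ^ 2) / 2 * T ^ 2)
      + (7 / 36) * kk * (rr S + rr T) ≤ rr S + rr T - 2 := by
  have hk := kk_pos
  set A := S ^ 2 with hA
  set B := T ^ 2 with hB
  have hA0 : 0 ≤ A := sq_nonneg S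
  have hB0 : 0 ≤ B := sq_nonneg T
  have rS : rr S = 1 + kk / 4 + (1 / 72) * (A ^ 2 + A) + (1 / 2160) * A ^ 2 := by
    unfold rr; rw [hA]; ring
  have rT : rr T = 1 + kk / 4 + (1 / 72) * (B ^ 2 + B) + (1 / 2160) * B ^ 2 := by
    unfold rr; rw [hB]; ring
  have hA2 : A ^ 2 ≤ 1 := by nlinarith
  have hB2 : B ^ 2 ≤ 1 := by nlinarith
  have hkk : kk ≤ 1 / 100000 := le_of_eq rfl
  have bS : rr S ≤ 103 / 100 := by rw [rS]; nlinarith
  have bT : rr T ≤ 103 / 100 := by rw [rT]; nlinarith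
  have h1 : (7 / 36) * kk * (rr S + rr T) ≤ kk / 2 := by nlinarith
  set M := (A + B + 1) / 2 + (1 / 60) * (A + B) with hM
  have hM0 : 0 ≤ M := by positivity
  have hM1 : M ≤ 23 / 15 := by linarith
  have hM2 : M ^ 2 ≤ 12 / 5 := by nlinarith
  have hd : rr T - rr S = (1 / 36) * ((B - A) * M) := by rw [rS, rT, hM]; ring
  have hST : (S * T) ^ 2 = A * B := by rw [hA, hB]; ring
  have h2 : (1 / 6) * (S * T) * ((B - A) * M) ≤ (B - A) ^ 2 / 2 + (1 / 72) * (A * B * M ^ 2) := by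
    nlinarith [sq_nonneg ((B - A) - (1 / 6) * (S * T) * M)]
  have h3 : A * B * M ^ 2 ≤ (6 / 5) * (A ^ 2 + B ^ 2) := by
    have : A * B * M ^ 2 ≤ A * B * (12 / 5) := mul_le_mul_of_nonneg_left hM2 (mul_nonneg hA0 hB0)
    nlinarith [sq_nonneg (A - B)]
  rw [hd]
  have h4 : rr S + rr T - 2 = kk / 2 + (1 / 72) * (A ^ 2 + A + B ^ 2 + B)
      + (1 / 2160) * (A ^ 2 + B ^ 2) := by rw [rS, rT]; ring
  rw [h4]
  nlinarith

lemma mul_le_of_abs (c d e : ℝ) (hc : |c| ≤ 1) (hd : |d| ≤ e) : c * d ≤ e := by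
  calc c * d ≤ |c * d| := le_abs_self _
    _ = |c| * |d| := abs_mul _ _
    _ ≤ 1 * e := mul_le_mul hc hd (abs_nonneg _) zero_le_one
    _ = e := one_mul _

lemma gap_core {k p q W V S T P Q a b : ℝ} (hk : 0 < k) (hkk : k ≤ 1 / 100000)
    (hSa : |S| ≤ 1) (hTa : |T| ≤ 1) (hPS : S ^ 2 ≤ P) (hQT : T ^ 2 ≤ Q)
    (hP1 : P ≤ (1 + S ^ 2) / 2) (hQ1 : Q ≤ (1 + T ^ 2) / 2) (r1 : 1 ≤ a) (r2 : 1 ≤ b)
    (key : (1 / 6) * (S * T) * (b - a)
      + (1 / 36) * ((1 + T ^ 2) / 2 * S ^ 2 + (1 + S ^ 2) / 2 * T ^ 2)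
      + (7 / 36) * k * (a + b) ≤ a + b - 2)
    (hpa : |p| ≤ k * W) (hqa : |q| ≤ k * V) (hW : a < W) (hV : b < V)
    (main : (1 + P * Q / 36) * (W + V - 2) =
      (1 / 6) * (S * T * (V - W) + S * q - T * p)
        + (1 / 36) * (Q * S ^ 2 * W + P * T ^ 2 * V + S * Q * p + T * P * q)) : False := by
  have hS : S ^ 2 ≤ 1 := by rw [← sq_abs]; exact pow_le_one₀ (abs_nonneg _) hSa
  have hT : T ^ 2 ≤ 1 := by rw [← sq_abs]; exact pow_le_one₀ (abs_nonneg _) hTa
  have hP0 : 0 ≤ P := le_trans (sq_nonneg S) hPS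
  have hQ0 : 0 ≤ Q := le_trans (sq_nonneg T) hQT
  have hP2 : P ≤ 1 := by linarith
  have hQ2 : Q ≤ 1 := by linarith
  have e1 : S * q ≤ k * V := mul_le_of_abs _ _ _ hSa hqa
  have e2 : (-T) * p ≤ k * W := mul_le_of_abs _ _ _ (by rwa [abs_neg]) hpa
  have e3 : S * Q * p ≤ k * W := mul_le_of_abs _ _ _ (by
    rw [abs_mul, abs_of_nonneg hQ0]; exact mul_le_one₀ hSa hQ0 hQ2) hpa
  have e4 : T * P * q ≤ k * V := mul_le_of_abs _ _ _ (by
    rw [abs_mul, abs_of_nonneg hP0]; exact mul_le_one₀ hTa hP0 hP2) hqa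
  have hSTa : |S * T| ≤ 1 := by
    rw [abs_mul]; exact mul_le_one₀ hSa (abs_nonneg _) hTa
  have f1 : S * T * ((V - b) - (W - a)) ≤ (W - a) + (V - b) :=
    mul_le_of_abs _ _ _ hSTa (abs_le.mpr ⟨by linarith, by linarith⟩)
  have f2 : Q * S ^ 2 * (W - 1) ≤ Q * P * (W - 1) :=
    mul_le_mul_of_nonneg_right (mul_le_mul_of_nonneg_left hPS hQ0) (by linarith)
  have f3 : P * T ^ 2 * (V - 1) ≤ P * Q * (V - 1) :=
    mul_le_mul_of_nonneg_right (mul_le_mul_of_nonneg_left hQT hP0) (by linarith)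
  have f4 : Q * S ^ 2 ≤ (1 + T ^ 2) / 2 * S ^ 2 := mul_le_mul_of_nonneg_right hQ1 (sq_nonneg S)
  have f5 : P * T ^ 2 ≤ (1 + S ^ 2) / 2 * T ^ 2 := mul_le_mul_of_nonneg_right hP1 (sq_nonneg T)
  have f6 : k * ((W - a) + (V - b)) ≤ 1 / 100000 * ((W - a) + (V - b)) :=
    mul_le_mul_of_nonneg_right hkk (by linarith)
  linarith

/-- No point of an upper wedge and a lower wedge lies below the first and above the second
truncation. -/
lemma gap {x y W V S T : ℝ} (hS1 : -1 + kk ≤ S) (hS2 : S ≤ 1 - kk) (hT1 : -1 + kk ≤ T)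
    (hT2 : T ≤ 1 - kk) (hWV : W + V = 2 + (S * x - T * y) / 6)
    (hY1 : (S - kk) * W ≤ y + PP S / 6 * x) (hY2 : y + PP S / 6 * x ≤ (S + kk) * W)
    (hX1 : (T - kk) * V ≤ x - PP T / 6 * y) (hX2 : x - PP T / 6 * y ≤ (T + kk) * V) :
    W ≤ rr S ∨ V ≤ rr T := by
  by_contra hcon
  push Not at hcon
  obtain ⟨hW, hV⟩ := hcon
  have hk := kk_pos
  have hkk : kk ≤ 1 / 100000 := le_of_eq rfl
  have hSa : |S| ≤ 1 := abs_le.mpr ⟨by linarith, by linarith⟩
  have hTa : |T| ≤ 1 := abs_le.mpr ⟨by linarith, by linarith⟩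
  have hS : S ^ 2 ≤ 1 := by rw [← sq_abs]; exact pow_le_one₀ (abs_nonneg _) hSa
  have hT : T ^ 2 ≤ 1 := by rw [← sq_abs]; exact pow_le_one₀ (abs_nonneg _) hTa
  have hPS : ∀ S : ℝ, -1 + kk ≤ S → S ≤ 1 - kk → S ^ 2 ≤ PP S := by
    intro S h1 h2; unfold PP; nlinarith
  have hP1 : ∀ S : ℝ, PP S ≤ (1 + S ^ 2) / 2 := by
    intro S; unfold PP; nlinarith
  refine gap_core (p := y + PP S / 6 * x - S * W) (q := x - PP T / 6 * y - T * V) hk hkk hSa hTa
    (hPS S hS1 hS2) (hPS T hT1 hT2) (hP1 S) (hP1 T) (rr_ge S) (rr_ge T) (key_ineq hS hT)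
    (abs_le.mpr ⟨by linarith, by linarith⟩) (abs_le.mpr ⟨by linarith, by linarith⟩) hW hV ?_
  have : W + V - 2 = (S * x - T * y) / 6 := by linarith
  rw [this]; ring

lemma sign_change (F : ℕ → ℝ) (n : ℕ) (h0 : 0 ≤ F 0) (hn : F (n + 1) ≤ 0) :
    ∃ i, i < n + 1 ∧ 0 ≤ F i ∧ F (i + 1) ≤ 0 := by
  by_contra hcon
  push Not at hcon
  have : ∀ i, i < n + 1 → 0 < F (i + 1) := by
    intro i
    induction i with
    | zero => intro h; exact hcon 0 h h0
    | succ j ih => intro h; exact hcon _ h (ih (by omega)).le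
  exact absurd (this n (by omega)) (not_lt.mpr hn)

lemma wedge_exists {x y w : ℝ} (h1 : -w ≤ y) (h2 : y ≤ w) :
    ∃ i, i < 100000 ∧
      (mid i - kk) * (w + mid i / 6 * x) ≤ y + PP (mid i) / 6 * x ∧
      y + PP (mid i) / 6 * x ≤ (mid i + kk) * (w + mid i / 6 * x) := by
  obtain ⟨i, hi, ha, hb⟩ := sign_change (fun i => y - sl i * w - x * (sl i ^ 2 - 1) / 12) 99999
    (by simp only [sl_zero]; linarith) (by
      show y - sl 100000 * w - x * (sl 100000 ^ 2 - 1) / 12 ≤ 0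
      rw [sl_last]; linarith)
  refine ⟨i, hi, ?_, ?_⟩
  · have : y + PP (mid i) / 6 * x - (mid i - kk) * (w + mid i / 6 * x)
        = y - sl i * w - x * (sl i ^ 2 - 1) / 12 := by
      unfold PP mid; ring
    linarith
  · have : y + PP (mid i) / 6 * x - (mid i + kk) * (w + mid i / 6 * x)
        = y - sl (i + 1) * w - x * (sl (i + 1) ^ 2 - 1) / 12 := by
      rw [sl_succ]; unfold PP mid; ring
    linarith

lemma rho_ineq (S : ℝ) : 0 < rho S ∧ 1 ≤ rho S ^ 2 * (1 + qq S) := by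
  have hq : 0 ≤ qq S := by unfold qq; positivity
  unfold rho
  set q := qq S
  constructor
  · nlinarith [sq_nonneg (q - 1)]
  · have : (1 - q / 2 + 3 / 8 * q ^ 2) ^ 2 * (1 + q)
        = 1 + q ^ 3 * (40 - 15 * q + 9 * q ^ 2) / 64 := by ring
    rw [this]
    have : 0 ≤ q ^ 3 * (40 - 15 * q + 9 * q ^ 2) :=
      mul_nonneg (pow_nonneg hq 3) (by nlinarith [sq_nonneg (q - 1)])
    linarith

end Vale.Agent.P243
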