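import Vale.Agent.P243.Tetra
import Vale.Agent.P243.Real

namespace Vale.Agent.P243

open MeasureTheory Module
open scoped InnerProductSpace

/-- The two frames (upper and lower family). -/
noncomputable def fr (σ : Bool) (x y z : ℝ) : E3 :=
  if σ then !₂[(x + y) / 2, (x - y) / 2, z] else !₂[(y - x) / 2, (x + y) / 2, -z]

noncomputable def dir (j : Bool × Fin 100000) : E3 :=
  fr j.1 1 (-(PP (mid j.2) / 6)) (mid j.2 / 6)

noncomputable def udir (j : Bool × Fin 100000) : E3 := ‖dir j‖⁻¹ • dir j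

noncomputable def e1 (j : Bool × Fin 100000) : E3 :=
  fr j.1 0 (rr (mid j.2) * (mid j.2 - kk)) (-rr (mid j.2))

noncomputable def e2 (j : Bool × Fin 100000) : E3 :=
  fr j.1 0 (rr (mid j.2) * (mid j.2 + kk)) (-rr (mid j.2))

noncomputable def base (j : Bool × Fin 100000) : Set (ℝ ∙ udir j)ᗮ :=
  piece (udir j) (fr j.1 0 0 1) (e1 j) (e2 j) triC

lemma dir_normsq (j : Bool × Fin 100000) : ‖dir j‖ ^ 2 = (1 + qq (mid j.2)) / 2 := by
  rw [EuclideanSpace.real_norm_sq_eq, Fin.sum_univ_three]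
  obtain ⟨σ, i⟩ := j
  cases σ <;> simp [dir, fr, qq] <;> ring

lemma dir_norm_pos (j : Bool × Fin 100000) : 0 < ‖dir j‖ := by
  have h := dir_normsq j
  have hq : 0 ≤ qq (mid j.2) := by unfold qq; positivity
  rcases (norm_nonneg (dir j)).eq_or_lt with h0 | h0
  · rw [← h0] at h; nlinarith
  · exact h0

lemma udir_norm (j : Bool × Fin 100000) : ‖udir j‖ = 1 := by
  have := dir_norm_pos j
  rw [udir, norm_smul, norm_inv, norm_norm]
  field_simp

lemma det_base (j : Bool × Fin 100000) :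
    |det3 (udir j) (e1 j) (e2 j)| = ‖dir j‖⁻¹ * (kk * rr (mid j.2) ^ 2) := by
  have h0 := dir_norm_pos j
  have hk := kk_pos
  have hpos : 0 ≤ ‖dir j‖⁻¹ * (kk * rr (mid j.2) ^ 2) := by positivity
  have : det3 (udir j) (e1 j) (e2 j) = ‖dir j‖⁻¹ * (kk * rr (mid j.2) ^ 2) ∨
      det3 (udir j) (e1 j) (e2 j) = -(‖dir j‖⁻¹ * (kk * rr (mid j.2) ^ 2)) := by
    unfold udir
    generalize ‖dir j‖⁻¹ = c
    obtain ⟨σ, i⟩ := j
    cases σ
    · left; simp [det3, dir, e1, e2, fr]; ring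
    · right; simp [det3, dir, e1, e2, fr]; ring
  rcases this with h | h
  · rw [h, abs_of_nonneg hpos]
  · rw [h, abs_neg, abs_of_nonneg hpos]

lemma area_base (j : Bool × Fin 100000) :
    area0 (udir j) (base j) = ‖dir j‖⁻¹ * (kk * rr (mid j.2) ^ 2) / 2 := by
  have h0 := dir_norm_pos j
  have hk := kk_pos
  unfold area0 base
  rw [volume_piece (udir_norm j), volume_triC, det_base, ← ENNReal.ofReal_mul (by positivity),
    ENNReal.toReal_ofReal (by positivity)]
  ring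

lemma mem_cyl (j : Bool × Fin 100000) {x y z : ℝ}
    (h1 : (mid j.2 - kk) * (1 - z + mid j.2 / 6 * x) ≤ y + PP (mid j.2) / 6 * x)
    (h2 : y + PP (mid j.2) / 6 * x ≤ (mid j.2 + kk) * (1 - z + mid j.2 / 6 * x))
    (h3 : 1 - z + mid j.2 / 6 * x ≤ rr (mid j.2)) :
    fr j.1 x y z ∈ cylinder0 (udir j) (base j) := by
  have hk := kk_pos
  have hr : 0 < rr (mid j.2) := lt_of_lt_of_le one_pos (rr_ge _)
  have h0 := dir_norm_pos j
  set W := 1 - z + mid j.2 / 6 * x with hW
  set Y := y + PP (mid j.2) / 6 * x with hY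
  let s : ℝ := ((mid j.2 + kk) * W - Y) / (2 * kk * rr (mid j.2))
  let t : ℝ := (Y - (mid j.2 - kk) * W) / (2 * kk * rr (mid j.2))
  have hs : 0 ≤ s := div_nonneg (by linarith) (by positivity)
  have ht : 0 ≤ t := div_nonneg (by linarith) (by positivity)
  have hst : s + t = W / rr (mid j.2) := by simp only [s, t]; field_simp; ring
  have hst1 : s + t ≤ 1 := by rw [hst, div_le_one hr]; exact h3
  have a1 : rr (mid j.2) * (s + t) = W := by rw [hst]; field_simp
  have a2 : rr (mid j.2) * ((mid j.2 - kk) * s + (mid j.2 + kk) * t) = Y := by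
    simp only [s, t]; field_simp; ring
  have hp : fr j.1 x y z = fr j.1 0 0 1 + s • e1 j + t • e2 j + x • dir j := by
    obtain ⟨σ, i⟩ := j
    simp only at a1 a2 hW hY
    ext l
    cases σ <;> fin_cases l <;> simp [fr, e1, e2, dir] <;> linarith
  refine ⟨_, ⟨!₂[s, t], ⟨by simpa using hs, by simpa using ht, by simpa using hst1⟩, rfl⟩,
    ⟪udir j, fr j.1 0 0 1 + s • e1 j + t • e2 j⟫_ℝ + x * ‖dir j‖, ?_⟩
  rw [proj_coe (udir_norm j)]
  have hx : x • dir j = (x * ‖dir j‖) • udir j := by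
    rw [udir, smul_smul, mul_assoc, mul_inv_cancel₀ h0.ne', mul_one]
  rw [hp, hx]
  simp only [Matrix.cons_val_zero, Matrix.cons_val_one, Matrix.cons_val_fin_one]
  module

lemma cover : tet ⊆ ⋃ j, cylinder0 (udir j) (base j) := by
  rintro p ⟨a, b, c, d⟩
  obtain ⟨i, hi, u1, u2⟩ := wedge_exists (x := p 0 + p 1) c d
  obtain ⟨l, hl, l1, l2⟩ := wedge_exists (x := -(p 0 - p 1)) a b
  have hb1 := mid_bound hi
  have hb2 := mid_bound hl
  have key := gap (x := p 0 + p 1) (y := p 0 - p 1) (W := 1 - p 2 + mid i / 6 * (p 0 + p 1))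
    (V := 1 + p 2 + mid l / 6 * (-(p 0 - p 1))) hb1.1 hb1.2 hb2.1 hb2.2 (by ring) u1 u2
    (by linarith) (by linarith)
  rw [Set.mem_iUnion]
  rcases key with h | h
  · refine ⟨(true, ⟨i, hi⟩), ?_⟩
    have := mem_cyl (true, ⟨i, hi⟩) u1 u2 h
    have e : fr true (p 0 + p 1) (p 0 - p 1) (p 2) = p := by
      ext l; fin_cases l <;> simp [fr]
    rwa [e] at this
  · refine ⟨(false, ⟨l, hl⟩), ?_⟩
    have := mem_cyl (false, ⟨l, hl⟩) (x := -(p 0 - p 1)) (y := p 0 + p 1) (z := -p 2)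
      (by simpa using l1) (by simpa using l2) (by simpa using h)
    have e : fr false (-(p 0 - p 1)) (p 0 + p 1) (-p 2) = p := by
      ext l; fin_cases l <;> simp [fr] <;> ring
    rwa [e] at this

lemma area_le (j : Bool × Fin 100000) :
    area0 (udir j) (base j) ≤ √2 / 4 * (2 * kk * (rr (mid j.2) ^ 2 * rho (mid j.2))) := by
  rw [area_base]
  have h0 := dir_norm_pos j
  have hk := kk_pos
  obtain ⟨r0, r1⟩ := rho_ineq (mid j.2)
  have hn := dir_normsq j
  have h2 : √2 ^ 2 = (2 : ℝ) := Real.sq_sqrt (by norm_num)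
  have hs : (0 : ℝ) < √2 := by positivity
  have key : ‖dir j‖⁻¹ ≤ √2 * rho (mid j.2) := by
    rw [inv_le_iff_one_le_mul₀ h0]
    have : 1 ≤ (√2 * rho (mid j.2) * ‖dir j‖) ^ 2 := by
      rw [mul_pow, mul_pow, h2, hn]; linarith
    by_contra hcon
    push Not at hcon
    have h3 : 0 ≤ √2 * rho (mid j.2) * ‖dir j‖ := by positivity
    nlinarith
  have : 0 ≤ kk * rr (mid j.2) ^ 2 := by positivity
  nlinarith [mul_le_mul_of_nonneg_right key this]

lemma rel_le (j : Bool × Fin 100000) :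
    area0 (udir j) (base j) / projArea0 tet (udir j) ≤ 1 / 8 *
      (2 * kk * (rr (mid j.2) ^ 2 * (1 - PP (mid j.2) / 6 + (PP (mid j.2) / 6) ^ 2))) := by
  have h0 := dir_norm_pos j
  have hk := kk_pos
  have hkk : kk ≤ 1 / 100000 := le_of_eq rfl
  have hP : 0 ≤ PP (mid j.2) := by unfold PP; nlinarith [sq_nonneg (mid j.2)]
  obtain ⟨c0, c1, -⟩ := coord_le (udir_norm j)
  have hl : ‖dir j‖⁻¹ * (2 * (1 + PP (mid j.2) / 6)) ≤ projArea0 tet (udir j) := by
    have hi : 0 < ‖dir j‖⁻¹ := inv_pos.mpr h0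
    obtain ⟨σ, i⟩ := j
    cases σ
    · refine le_trans ?_ c0
      have : udir (false, i) 0 = -(‖dir (false, i)‖⁻¹ * ((1 + PP (mid i) / 6) / 2)) := by
        unfold udir
        generalize ‖dir (false, i)‖⁻¹ = c
        simp [dir, fr]; ring
      rw [this, abs_neg, abs_of_nonneg (by positivity)]
      apply le_of_eq; ring
    · refine le_trans ?_ c1
      have : udir (true, i) 1 = (‖dir (true, i)‖⁻¹ * ((1 + PP (mid i) / 6) / 2)) := by
        unfold udir
        generalize ‖dir (true, i)‖⁻¹ = c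
        simp [dir, fr]
      rw [this, abs_of_nonneg (by positivity)]
      apply le_of_eq; ring
  have hpos : 0 < ‖dir j‖⁻¹ * (2 * (1 + PP (mid j.2) / 6)) := by positivity
  rw [area_base]
  refine le_trans (div_le_div_of_nonneg_left (by positivity) hpos hl) ?_
  rw [div_le_iff₀ hpos]
  set x := PP (mid j.2) / 6
  have hx : 0 ≤ x := by positivity
  have h3 : 0 ≤ ‖dir j‖⁻¹ * (kk * rr (mid j.2) ^ 2) * x ^ 3 := by positivity
  nlinarith

lemma total_area : ∑ j, area0 (udir j) (base j) ≤ (1 / 2 - 1 / 4500) * (2 * √2) := by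
  have h1 := sum1
  have hs : (0 : ℝ) < √2 := by positivity
  calc ∑ j, area0 (udir j) (base j)
      ≤ ∑ j : Bool × Fin 100000, √2 / 4 * (2 * kk * (rr (mid j.2) ^ 2 * rho (mid j.2))) :=
        Finset.sum_le_sum fun j _ => area_le j
    _ = √2 / 2 * ∑ i ∈ Finset.range 100000, 2 * kk * (rr (mid i) ^ 2 * rho (mid i)) := by
        rw [Fintype.sum_prod_type, Fintype.sum_bool, ← Finset.mul_sum,
          Finset.sum_range (fun i => 2 * kk * (rr (mid i) ^ 2 * rho (mid i)))]
        ring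
    _ ≤ √2 / 2 * (2 - 4 / 4500) := mul_le_mul_of_nonneg_left h1 (by positivity)
    _ ≤ _ := by apply le_of_eq; ring

lemma total_rel : ∑ j, area0 (udir j) (base j) / projArea0 tet (udir j) ≤ 229 / 500 := by
  have h1 := sum2
  calc ∑ j, area0 (udir j) (base j) / projArea0 tet (udir j)
      ≤ ∑ j : Bool × Fin 100000, 1 / 8 *
        (2 * kk * (rr (mid j.2) ^ 2 * (1 - PP (mid j.2) / 6 + (PP (mid j.2) / 6) ^ 2))) :=
        Finset.sum_le_sum fun j _ => rel_le j
    _ = 1 / 4 * ∑ i ∈ Finset.range 100000,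
        2 * kk * (rr (mid i) ^ 2 * (1 - PP (mid i) / 6 + (PP (mid i) / 6) ^ 2)) := by
        rw [Fintype.sum_prod_type, Fintype.sum_bool, ← Finset.mul_sum,
          Finset.sum_range
            (fun i => 2 * kk * (rr (mid i) ^ 2 * (1 - PP (mid i) / 6 + (PP (mid i) / 6) ^ 2)))]
        ring
    _ ≤ _ := by linarith

theorem main_tet :
    ∃ (m : ℕ) (u : Fin m → E3) (B : (i : Fin m) → Set (ℝ ∙ u i)ᗮ),
      (∀ i, ‖u i‖ = 1) ∧ (∀ i, MeasurableSet (B i)) ∧ (∀ i, volume (B i) < ⊤) ∧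
      tet ⊆ ⋃ i, cylinder0 (u i) (B i) ∧
      ∑ i, area0 (u i) (B i) ≤ (1 / 2 - 1 / 4500) * (2 * √2) ∧
      ∑ i, area0 (u i) (B i) / projArea0 tet (u i) ≤ 229 / 500 := by
  let e : Fin (Fintype.card (Bool × Fin 100000)) ≃ Bool × Fin 100000 := (Fintype.equivFin _).symm
  refine ⟨_, fun i => udir (e i), fun i => base (e i), fun i => udir_norm _,
    fun i => (isCompact_piece _ _ _ _).measurableSet,
    fun i => (isCompact_piece _ _ _ _).measure_lt_top, ?_, ?_, ?_⟩
  · intro p hp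
    obtain ⟨j, hj⟩ := Set.mem_iUnion.mp (cover hp)
    refine Set.mem_iUnion.mpr ⟨e.symm j, ?_⟩
    have : ∀ j', j' = j → p ∈ cylinder0 (udir j') (base j') := by
      rintro _ rfl; exact hj
    exact this _ (e.apply_symm_apply j)
  · rw [Equiv.sum_comp e (fun j => area0 (udir j) (base j))]
    exact total_area
  · rw [Equiv.sum_comp e (fun j => area0 (udir j) (base j) / projArea0 tet (udir j))]
    exact total_rel

end Vale.Agent.P243
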