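import Vale.Agent.P243.Area

namespace Vale.Agent.P243

open MeasureTheory Module
open scoped InnerProductSpace

/-- The regular tetrahedron, by inequalities. -/
def tet : Set E3 :=
  {p | -(1 + p 2) ≤ p 0 + p 1 ∧ p 0 + p 1 ≤ 1 + p 2 ∧ -(1 - p 2) ≤ p 0 - p 1 ∧ p 0 - p 1 ≤ 1 - p 2}

lemma convex_tet : Convex ℝ tet := by
  intro a ha b hb s t hs ht hst
  obtain ⟨a0, a1, a2, a3⟩ := ha
  obtain ⟨b0, b1, b2, b3⟩ := hb
  refine ⟨?_, ?_, ?_, ?_⟩ <;> simp only [PiLp.add_apply, PiLp.smul_apply, smul_eq_mul] <;> nlinarith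

lemma isCompact_tet : IsCompact tet := by
  have h1 : IsClosed {p : E3 | -(1 + p 2) ≤ p 0 + p 1} := isClosed_le (by fun_prop) (by fun_prop)
  have h2 : IsClosed {p : E3 | p 0 + p 1 ≤ 1 + p 2} := isClosed_le (by fun_prop) (by fun_prop)
  have h3 : IsClosed {p : E3 | -(1 - p 2) ≤ p 0 - p 1} := isClosed_le (by fun_prop) (by fun_prop)
  have h4 : IsClosed {p : E3 | p 0 - p 1 ≤ 1 - p 2} := isClosed_le (by fun_prop) (by fun_prop)
  apply Metric.isCompact_of_isClosed_isBounded (h1.inter (h2.inter (h3.inter h4)))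
  rw [Metric.isBounded_iff_subset_closedBall 0]
  refine ⟨2, fun v hv => ?_⟩
  obtain ⟨a0, a1, a2, a3⟩ := hv
  simp only [Set.mem_ofPred_eq] at a0 a1 a2 a3
  rw [mem_closedBall_zero_iff]
  have h := EuclideanSpace.real_norm_sq_eq v
  rw [Fin.sum_univ_three] at h
  have b0 : v 0 ^ 2 ≤ 1 := by nlinarith
  have b1 : v 1 ^ 2 ≤ 1 := by nlinarith
  have b2 : v 2 ^ 2 ≤ 1 := by nlinarith
  nlinarith [norm_nonneg v]

lemma interior_tet : (interior tet).Nonempty := by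
  refine ⟨0, mem_interior_iff_mem_nhds.mpr ?_⟩
  have h1 : IsOpen {p : E3 | -(1 + p 2) < p 0 + p 1} := isOpen_lt (by fun_prop) (by fun_prop)
  have h2 : IsOpen {p : E3 | p 0 + p 1 < 1 + p 2} := isOpen_lt (by fun_prop) (by fun_prop)
  have h3 : IsOpen {p : E3 | -(1 - p 2) < p 0 - p 1} := isOpen_lt (by fun_prop) (by fun_prop)
  have h4 : IsOpen {p : E3 | p 0 - p 1 < 1 - p 2} := isOpen_lt (by fun_prop) (by fun_prop)
  refine Filter.mem_of_superset ((h1.inter (h2.inter (h3.inter h4))).mem_nhds ?_) ?_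
  · simp
  · rintro p ⟨a, b, c, d⟩
    exact ⟨le_of_lt a, le_of_lt b, le_of_lt c, le_of_lt d⟩

lemma tet_eq : tet = convexHull ℝ
    ({!₂[1, 1, 1], !₂[1, -1, -1], !₂[-1, 1, -1], !₂[-1, -1, 1]} : Set E3) := by
  apply Set.Subset.antisymm
  · rintro p ⟨a, b, c, d⟩
    have hc := convex_convexHull ℝ
      ({!₂[1, 1, 1], !₂[1, -1, -1], !₂[-1, 1, -1], !₂[-1, -1, 1]} : Set E3)
    let z : Fin 4 → E3 := ![!₂[1, 1, 1], !₂[1, -1, -1], !₂[-1, 1, -1], !₂[-1, -1, 1]]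
    let w : Fin 4 → ℝ := ![(1 + p 0 + p 1 + p 2) / 4, (1 + p 0 - p 1 - p 2) / 4,
      (1 - p 0 + p 1 - p 2) / 4, (1 - p 0 - p 1 + p 2) / 4]
    have hp : p = ∑ i, w i • z i := by
      ext j
      fin_cases j <;> simp [w, z, Fin.sum_univ_four] <;> ring
    rw [hp]
    apply hc.sum_mem
    · intro i _
      fin_cases i <;> simp [w] <;> linarith
    · simp [w, Fin.sum_univ_four]; ring
    · intro i _
      apply subset_convexHull
      fin_cases i <;> simp [z]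
  · apply convexHull_min _ convex_tet
    intro p hp
    simp only [Set.mem_insert_iff, Set.mem_singleton_iff] at hp
    rcases hp with rfl | rfl | rfl | rfl <;> simp [tet] <;> norm_num

lemma volume_proj_lt_top {K : Set E3} (hK : IsCompact K) (u : E3) :
    volume ((ℝ ∙ u)ᗮ.orthogonalProjectionOnto '' K) < ⊤ :=
  (hK.image (ℝ ∙ u)ᗮ.orthogonalProjectionOnto.continuous).measure_lt_top

lemma piece_subset {K : Set E3} (hK : Convex ℝ K) (u : E3) {A B C : E3} (hA : A ∈ K) (hB : B ∈ K)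
    (hC : C ∈ K) : piece u A (B - A) (C - A) triC ⊆ (ℝ ∙ u)ᗮ.orthogonalProjectionOnto '' K := by
  rintro _ ⟨v, ⟨h0, h1, h2⟩, rfl⟩
  refine ⟨_, ?_, rfl⟩
  let z : Fin 3 → E3 := ![A, B, C]
  let w : Fin 3 → ℝ := ![1 - v 0 - v 1, v 0, v 1]
  have hp : A + v 0 • (B - A) + v 1 • (C - A) = ∑ i, w i • z i := by
    simp [w, z, Fin.sum_univ_three]; module
  rw [hp]
  apply hK.sum_mem
  · intro i _
    fin_cases i <;> simp [w] <;> linarith
  · simp [w, Fin.sum_univ_three]; ring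
  · intro i _
    fin_cases i <;> simp [z] <;> assumption

lemma tri_le {K : Set E3} (hK : Convex ℝ K) (hc : IsCompact K) {u : E3} (hu : ‖u‖ = 1)
    {A B C : E3} (hA : A ∈ K) (hB : B ∈ K) (hC : C ∈ K) :
    |det3 u (B - A) (C - A)| / 2 ≤ projArea0 K u := by
  unfold projArea0 area0
  rw [← ENNReal.ofReal_le_iff_le_toReal (volume_proj_lt_top hc u).ne]
  refine le_trans (le_of_eq ?_) (measure_mono (piece_subset hK u hA hB hC))
  rw [volume_piece hu, volume_triC, ← ENNReal.ofReal_mul (abs_nonneg _)]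
  congr 1; ring

lemma quad_le_aux {K : Set E3} (hK : Convex ℝ K) (hc : IsCompact K) {u : E3} (hu : ‖u‖ = 1)
    {A B C D : E3} (hA : A ∈ K) (hB : B ∈ K) (hC : C ∈ K) (hD : D ∈ K)
    (h1 : 0 < det3 u (B - A) (C - A)) (h2 : det3 u (B - A) (D - A) < 0) :
    (det3 u (B - A) (C - A) - det3 u (B - A) (D - A)) / 2 ≤ projArea0 K u := by
  unfold projArea0 area0
  rw [← ENNReal.ofReal_le_iff_le_toReal (volume_proj_lt_top hc u).ne]
  have hsub : piece u A (B - A) (C - A) triO ∪ piece u A (B - A) (D - A) triC ⊆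
      (ℝ ∙ u)ᗮ.orthogonalProjectionOnto '' K :=
    Set.union_subset ((Set.image_mono triO_subset).trans (piece_subset hK u hA hB hC))
      (piece_subset hK u hA hB hD)
  refine le_trans (le_of_eq ?_) (measure_mono hsub)
  rw [measure_union _ (isCompact_piece _ _ _ _).measurableSet, volume_piece hu, volume_piece hu,
    volume_triC, volume_triO, ← ENNReal.ofReal_mul (abs_nonneg _),
    ← ENNReal.ofReal_mul (abs_nonneg _), ← ENNReal.ofReal_add (by positivity) (by positivity),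
    abs_of_pos h1, abs_of_neg h2]
  · congr 1; ring
  · rw [Set.disjoint_left]
    rintro _ ⟨v, ⟨_, hv, _⟩, rfl⟩ ⟨w, ⟨_, hw, _⟩, hvw⟩
    have h := congrArg (fun x : (ℝ ∙ u)ᗮ => det3 u (B - A) (x : E3)) hvw
    simp only [proj_coe hu] at h
    have e1 : ∀ (C' : E3) (s t c : ℝ), det3 u (B - A) (A + s • (B - A) + t • (C' - A) - c • u)
        = det3 u (B - A) A + t * det3 u (B - A) (C' - A) := by
      intro C' s t c
      simp only [det3, PiLp.add_apply, PiLp.sub_apply, PiLp.smul_apply, smul_eq_mul]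
      ring
    rw [e1, e1] at h
    nlinarith [mul_pos hv h1, mul_nonneg hw (neg_nonneg.mpr h2.le)]

lemma quad_le {K : Set E3} (hK : Convex ℝ K) (hc : IsCompact K) {u : E3} (hu : ‖u‖ = 1)
    {A B C D : E3} (hA : A ∈ K) (hB : B ∈ K) (hC : C ∈ K) (hD : D ∈ K) :
    |det3 u (B - A) (C - A) - det3 u (B - A) (D - A)| / 2 ≤ projArea0 K u := by
  have t1 := tri_le hK hc hu hA hB hC
  have t2 := tri_le hK hc hu hA hB hD
  set c := det3 u (B - A) (C - A) with hcdef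
  set d := det3 u (B - A) (D - A) with hddef
  by_cases h : 0 < c ∧ d < 0
  · have := quad_le_aux hK hc hu hA hB hC hD h.1 h.2
    rw [abs_of_pos (by linarith [h.1, h.2])]; exact this
  by_cases h' : 0 < d ∧ c < 0
  · have := quad_le_aux hK hc hu hA hB hD hC h'.1 h'.2
    rw [abs_of_neg (by linarith [h'.1, h'.2])]; linarith
  have : |c - d| ≤ |c| ∨ |c - d| ≤ |d| := by
    rcases abs_cases (c - d) with ⟨e, _⟩ | ⟨e, _⟩ <;> rcases abs_cases c with ⟨e1, _⟩ | ⟨e1, _⟩ <;>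
      rcases abs_cases d with ⟨e2, _⟩ | ⟨e2, _⟩ <;> rw [e, e1, e2] <;>
      (by_contra hcon; push Not at hcon h h'; obtain ⟨k1, k2⟩ := hcon;
       first
        | linarith
        | (have := h (by linarith); linarith)
        | (have := h' (by linarith); linarith))
  rcases this with h | h <;> linarith

lemma m1 : (!₂[1, 1, 1] : E3) ∈ tet := by simp [tet]; norm_num
lemma m2 : (!₂[1, -1, -1] : E3) ∈ tet := by simp [tet]; norm_num
lemma m3 : (!₂[-1, 1, -1] : E3) ∈ tet := by simp [tet]; norm_num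
lemma m4 : (!₂[-1, -1, 1] : E3) ∈ tet := by simp [tet]; norm_num

lemma coord_le {u : E3} (hu : ‖u‖ = 1) :
    4 * |u 0| ≤ projArea0 tet u ∧ 4 * |u 1| ≤ projArea0 tet u ∧ 4 * |u 2| ≤ projArea0 tet u := by
  have q1 := quad_le convex_tet isCompact_tet hu m1 m2 m3 m4
  have q2 := quad_le convex_tet isCompact_tet hu m1 m3 m2 m4
  have q3 := quad_le convex_tet isCompact_tet hu m1 m4 m2 m3
  have e1 : det3 u (!₂[1, -1, -1] - !₂[1, 1, 1]) (!₂[-1, 1, -1] - !₂[1, 1, 1])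
      - det3 u (!₂[1, -1, -1] - !₂[1, 1, 1]) (!₂[-1, -1, 1] - !₂[1, 1, 1]) = 8 * u 0 := by
    simp [det3]; ring
  have e2 : det3 u (!₂[-1, 1, -1] - !₂[1, 1, 1]) (!₂[1, -1, -1] - !₂[1, 1, 1])
      - det3 u (!₂[-1, 1, -1] - !₂[1, 1, 1]) (!₂[-1, -1, 1] - !₂[1, 1, 1]) = -(8 * u 1) := by
    simp [det3]; ring
  have e3 : det3 u (!₂[-1, -1, 1] - !₂[1, 1, 1]) (!₂[1, -1, -1] - !₂[1, 1, 1])
      - det3 u (!₂[-1, -1, 1] - !₂[1, 1, 1]) (!₂[-1, 1, -1] - !₂[1, 1, 1]) = 8 * u 2 := by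
    simp [det3]; ring
  rw [e1, abs_mul] at q1
  rw [e2, abs_neg, abs_mul] at q2
  rw [e3, abs_mul] at q3
  norm_num at q1 q2 q3
  exact ⟨by linarith, by linarith, by linarith⟩

lemma proj_lower {u : E3} (hu : ‖u‖ = 1) : 2 * √2 ≤ projArea0 tet u := by
  have q1 := tri_le convex_tet isCompact_tet hu m1 m2 m3
  have q2 := tri_le convex_tet isCompact_tet hu m1 m2 m4
  have q3 := tri_le convex_tet isCompact_tet hu m1 m3 m4
  have q4 := tri_le convex_tet isCompact_tet hu m2 m3 m4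
  have e1 : det3 u (!₂[1, -1, -1] - !₂[1, 1, 1]) (!₂[-1, 1, -1] - !₂[1, 1, 1])
      = 4 * (u 0 + u 1 - u 2) := by
    simp [det3]; ring
  have e2 : det3 u (!₂[1, -1, -1] - !₂[1, 1, 1]) (!₂[-1, -1, 1] - !₂[1, 1, 1])
      = 4 * (- u 0 + u 1 - u 2) := by
    simp [det3]; ring
  have e3 : det3 u (!₂[-1, 1, -1] - !₂[1, 1, 1]) (!₂[-1, -1, 1] - !₂[1, 1, 1])
      = 4 * (- u 0 + u 1 + u 2) := by
    simp [det3]; ring
  have e4 : det3 u (!₂[-1, 1, -1] - !₂[1, -1, -1]) (!₂[-1, -1, 1] - !₂[1, -1, -1])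
      = 4 * (u 0 + u 1 + u 2) := by
    simp [det3]; ring
  rw [e1] at q1
  rw [e2] at q2
  rw [e3] at q3
  rw [e4] at q4
  obtain ⟨c0, c1, c2⟩ := coord_le hu
  set a := projArea0 tet u
  have hl : 2 * (|u 0| + |u 1| + |u 2|) ≤ a := by
    have p1 := le_abs_self (4 * (u 0 + u 1 - u 2))
    have p2 := le_abs_self (4 * (- u 0 + u 1 - u 2))
    have p3 := le_abs_self (4 * (- u 0 + u 1 + u 2))
    have p4 := le_abs_self (4 * (u 0 + u 1 + u 2))
    have n1 := neg_le_abs (4 * (u 0 + u 1 - u 2))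
    have n2 := neg_le_abs (4 * (- u 0 + u 1 - u 2))
    have n3 := neg_le_abs (4 * (- u 0 + u 1 + u 2))
    have n4 := neg_le_abs (4 * (u 0 + u 1 + u 2))
    rcases abs_cases (u 0) with ⟨x, _⟩ | ⟨x, _⟩ <;> rcases abs_cases (u 1) with ⟨y, _⟩ | ⟨y, _⟩ <;>
      rcases abs_cases (u 2) with ⟨z, _⟩ | ⟨z, _⟩ <;> rw [x, y, z] <;> linarith
  have hn := normsq3 hu
  have a0 := abs_nonneg (u 0)
  have a1 := abs_nonneg (u 1)
  have a2 := abs_nonneg (u 2)
  have s0 := sq_abs (u 0)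
  have s1 := sq_abs (u 1)
  have s2 := sq_abs (u 2)
  have ha : 0 ≤ a := by linarith
  have h8 : 8 ≤ a ^ 2 := by
    nlinarith [mul_le_mul_of_nonneg_left c0 a0, mul_le_mul_of_nonneg_left c1 a1,
      mul_le_mul_of_nonneg_left c2 a2, mul_le_mul_of_nonneg_right hl ha]
  have hs : (2 * √2) ^ 2 = (8 : ℝ) := by
    rw [mul_pow, Real.sq_sqrt (by norm_num)]; norm_num
  by_contra hcon
  push Not at hcon
  have : a ^ 2 < (2 * √2) ^ 2 := by
    apply pow_lt_pow_left₀ hcon ha (by norm_num)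
  linarith

end Vale.Agent.P243
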